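import Vale.Agent.P218.CY.Mom
import Mathlib.Analysis.Distribution.TemperateGrowth

/-! The cylinder: growth, normal derivative, normalisation and orthogonality to the rotations of
the Jacobi field `c (z² - 2)`. -/

open MeasureTheory Set Filter Topology
open scoped ENNReal NNReal ContDiff

namespace Vale.Agent.P218.CY.H237

open Vale.Agent.P218.H63 Vale.Agent.P218.H588 Vale.Agent.P218.CY

/-- the derivative of the Jacobi field -/
lemma hasF_cv (c : ℝ) (x : E3) : HasFDerivAt (cv c) ((c * (2 * x 2)) • co 2) x := by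
  have h := ((hasF_pow 2 2 x).sub_const 2).const_mul c
  have e : c • ((((2 : ℕ) : ℝ) * x 2 ^ (2 - 1)) • co 2) = (c * (2 * x 2)) • co 2 := by
    rw [smul_smul]
    norm_num
  rw [e] at h
  exact h

lemma pd_cv (c : ℝ) (i : Fin 3) (x : E3) : pd i (cv c) x = if i = 2 then c * (2 * x 2) else 0 := by
  unfold pd
  rw [(hasF_cv c x).fderiv]
  fin_cases i <;> simp [ee_ap]

lemma pd2_cv (c : ℝ) : pd 2 (cv c) = fun x => c * (2 * x 2) := by
  funext x
  rw [pd_cv]
  simp

lemma pd22_cv (c : ℝ) (x : E3) : pd 2 (pd 2 (cv c)) x = 2 * c := by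
  rw [pd2_cv]
  unfold pd
  have h := ((hasF 2 x).const_mul 2).const_mul c
  rw [h.fderiv]
  simp [ee_ap]
  ring

lemma rot_cv (c : ℝ) : rot (cv c) = fun _ => 0 := by
  funext x
  unfold rot
  rw [pd_cv, pd_cv]
  simp

lemma rotrot_cv (c : ℝ) (x : E3) : rot (rot (cv c)) x = 0 := by
  rw [rot_cv]
  unfold rot pd
  simp

lemma smooth_cv (c : ℝ) (n : ℕ∞) : ContDiff ℝ n (cv c) :=
  contDiff_const.mul (((co 2).contDiff.pow 2).sub contDiff_const)

lemma tg_cv (c : ℝ) : Function.HasTemperateGrowth (cv c) := by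
  have h : Function.HasTemperateGrowth fun x : E3 => co 2 x := (co 2).hasTemperateGrowth
  have h2 : Function.HasTemperateGrowth fun x : E3 => c * ((co 2 x) ^ 2 - 2) := by fun_prop
  exact h2

lemma inner_gradient (f : E3 → ℝ) (x v : E3) : inner ℝ (gradient f x) v = fderiv ℝ f x v := by
  unfold gradient
  exact InnerProductSpace.toDual_symm_apply

lemma pr_ap (x : E3) (i : Fin 3) : pr x i = if i = 2 then 0 else x i := by
  unfold pr
  fin_cases i <;> simp [ee_ap]

lemma inner3 (x y : E3) : inner ℝ x y = x 0 * y 0 + x 1 * y 1 + x 2 * y 2 := by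
  rw [PiLp.inner_apply, Fin.sum_univ_three]
  simp
  ring

/-- on the cylinder `⟨A x, ∇w⟩` is a combination of `z x₀` and `z x₁` -/
lemma rotation_part (hG : RowG) (A : E3 →L[ℝ] E3) (hA : ∀ x, inner ℝ (A x) x = 0) {x : E3}
    (hx : x ∈ cyl) : inner ℝ (A x) (gradient cw x)
      = (√2)⁻¹ * ((A (ee 2)) 0) * (x 2 * x 0) + (√2)⁻¹ * ((A (ee 2)) 1) * (x 2 * x 1) := by
  have hr : r2 x = 2 := hx
  rw [(hG x (by rw [hr]; norm_num)).1, hr, inner_smul_right]
  have h1 : inner ℝ (A x) (pr x) = x 2 * (x 0 * (A (ee 2)) 0 + x 1 * (A (ee 2)) 1) := by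
    have hpol : ∀ y : E3, inner ℝ (A x) y = - inner ℝ (A y) x := by
      intro y
      have h := hA (x + y)
      rw [map_add, inner_add_left, inner_add_right, inner_add_right, hA x, hA y] at h
      linarith
    have h2 : (A (ee 2)) 2 = 0 := by
      have := hA (ee 2)
      rw [inner3] at this
      simpa [ee_ap] using this
    have h3 : inner ℝ (A x) (pr x) = inner ℝ (A x) x - x 2 * inner ℝ (A x) (ee 2) := by
      unfold pr
      rw [inner_sub_right, inner_smul_right]
    rw [h3, hA x, hpol (ee 2), inner3, h2]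
    ring
  rw [h1]
  ring

/-- (R7) -/
theorem rowB (hW : RowW) (hG : RowG) (hL : RowL) (hP : RowP) (hM : RowM) : RowB := by
  set M : ℝ := ∫ _x : E3, (1 : ℝ) ∂(gaussArea 2 cyl) with hMdef
  have hMpos : 0 < M := mass_pos hM
  set c : ℝ := (√(8 * M))⁻¹ with hc
  have h8 : 0 < √(8 * M) := Real.sqrt_pos.2 (by positivity)
  have hcpos : 0 < c := inv_pos.2 h8
  obtain ⟨q, C, -, hb⟩ := (tg_cv c).norm_iteratedFDeriv_le_uniform 3
  refine ⟨c, C, q, hcpos.ne', fun x n hn => hb n hn x, ?_, ?_, ?_, ?_, ?_⟩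
  · exact (smooth_cv c 3).of_le (by norm_num)
  · intro x hx
    have h12 := (hW.2.2.1 x hx).1
    rw [inner_gradient, (hasF_cv c x).fderiv, (hG x h12).1]
    simp [pr_ap]
  · intro x hx
    rw [hL (cv c) ((smooth_cv c 2).of_le (by norm_num)) x hx, pd22_cv, rotrot_cv, pd_cv]
    simp only [if_true]
    unfold cv
    ring
  · have e : ∀ x : E3, cv c x * cv c x = c ^ 2 * (x 2 ^ 2 - 2) ^ 2 := fun x => by
      unfold cv
      ring
    simp_rw [e]
    rw [integral_const_mul, sq_int hM hP, ← hMdef, hc, inv_pow, Real.sq_sqrt (by positivity)]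
    field_simp
  · intro A hA
    have hcyl : MeasurableSet cyl := by
      have : IsClosed cyl :=
        isClosed_eq (((co 0).continuous.pow 2).add ((co 1).continuous.pow 2)) continuous_const
      exact this.measurableSet
    have hae : ∀ᵐ x ∂(gaussArea 2 cyl), x ∈ cyl :=
      (withDensity_absolutelyContinuous _ _).ae_le (ae_restrict_mem hcyl)
    set α : ℝ := (√2)⁻¹ * (A (ee 2)) 0 with hα
    set β : ℝ := (√2)⁻¹ * (A (ee 2)) 1 with hβ
    have e : (fun x : E3 => cv c x * inner ℝ (A x) (gradient cw x)) =ᵐ[gaussArea 2 cyl]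
        fun x => (c * α * (x 2 ^ 3 * x 0) - 2 * c * α * (x 2 ^ 1 * x 0))
          + (c * β * (x 2 ^ 3 * x 1) - 2 * c * β * (x 2 ^ 1 * x 1)) := by
      filter_upwards [hae] with x hx
      rw [rotation_part hG A hA hx]
      unfold cv
      ring
    have hi : ∀ (n : ℕ) (i : Fin 3), Integrable (fun x : E3 => x 2 ^ n * x i)
        (gaussArea 2 cyl) := by
      intro n i
      obtain ⟨h1, C, p, h2⟩ := pg_mul n i
      exact int_of_bd hM h1.continuous (fun x => (h2 x).1)
    rw [integral_congr_ae e]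
    have i30 : Integrable (fun x : E3 => c * α * (x 2 ^ 3 * x 0)) (gaussArea 2 cyl) :=
      (hi 3 0).const_mul _
    have i10 : Integrable (fun x : E3 => 2 * c * α * (x 2 ^ 1 * x 0)) (gaussArea 2 cyl) :=
      (hi 1 0).const_mul _
    have i31 : Integrable (fun x : E3 => c * β * (x 2 ^ 3 * x 1)) (gaussArea 2 cyl) :=
      (hi 3 1).const_mul _
    have i11 : Integrable (fun x : E3 => 2 * c * β * (x 2 ^ 1 * x 1)) (gaussArea 2 cyl) :=
      (hi 1 1).const_mul _
    have j0 : Integrable (fun x : E3 => c * α * (x 2 ^ 3 * x 0) - 2 * c * α * (x 2 ^ 1 * x 0))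
        (gaussArea 2 cyl) := i30.sub i10
    have j1 : Integrable (fun x : E3 => c * β * (x 2 ^ 3 * x 1) - 2 * c * β * (x 2 ^ 1 * x 1))
        (gaussArea 2 cyl) := i31.sub i11
    rw [integral_add j0 j1, integral_sub i30 i10, integral_sub i31 i11,
      integral_const_mul, integral_const_mul, integral_const_mul, integral_const_mul,
      odd0 hP, odd0 hP, odd1 hP, odd1 hP]
    ring

end Vale.Agent.P218.CY.H237
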